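import Vale.Agent.P025.R2.H851.Integ
import Vale.Agent.P025.R2.H731.Sides
import Vale.Agent.P025.R2.H720.Stab

/-!
# P025, A-DIV (helper851): the divisor of a glued element

`z ∈ M`, `1 ⊗ z = a sⁿ` in `F1 ⊗ M` with `a`, `a⁻¹` integral over the functions on the closed disc,
`1 ⊗ z = tⁿ` in `F2 ⊗ M`: at every finite level all orders of `z` are divisible by `n`.
-/

open TensorProduct Vale.Agent.P019P P025H373 P025H492 P025H544 P025H731

universe u

namespace P025H851

section level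

variable {F A N : Type*} [Field F] [CommRing A] [Algebra F A] [Field N] [Algebra F N]

/-- elements of `A ⊗ N` come from finite levels -/
theorem exists_lev (x : A ⊗[F] N) : ∃ s : Finset N, ∀ L : IntermediateField F N,
    (s : Set N) ⊆ L → ∃ y : A ⊗[F] L, tL F A L.val y = x := by
  classical
  induction x using TensorProduct.induction_on with
  | zero => exact ⟨∅, fun L _ => ⟨0, map_zero _⟩⟩
  | tmul a z =>
    refine ⟨{z}, fun L hL => ⟨a ⊗ₜ (⟨z, hL (by simp)⟩ : L), ?_⟩⟩
    rw [tL_tmul]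
    rfl
  | add x y hx hy =>
    obtain ⟨s, hs⟩ := hx
    obtain ⟨t, ht⟩ := hy
    refine ⟨s ∪ t, fun L hL => ?_⟩
    rw [Finset.coe_union, Set.union_subset_iff] at hL
    obtain ⟨x', rfl⟩ := hs L hL.1
    obtain ⟨y', rfl⟩ := ht L hL.2
    exact ⟨x' + y', map_add _ _ _⟩

end level

variable {C : Type u} [NontriviallyNormedField C] [IsUltrametricDist C] [CompleteSpace C]
  [IsAlgClosed C]

/-- functions on the closed disc have values `≥ 0` at its places -/
theorem v1_nonneg {p : Plk C (RatFunc C)} (hp : p ∈ Inn C 1) {x : F1 C}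
    (hx : (x : F0 C) ∈ A1 C) : 0 ≤ v1 C p x := by
  obtain ⟨s, hs⟩ := exists_pnt1 hp
  exact hs.wi_nonneg (half1 C) hx

/-- finite level: the order of a unit integral with its inverse over functions on the disc -/
theorem sval_eq_zero {K : Type*} [Field K] [Algebra C K] [Algebra (RatFunc C) K]
    [IsScalarTower C (RatFunc C) K] [FiniteDimensional (RatFunc C) K] [CFF C K]
    {R : Type*} [CommRing R] (f : R →+* F1 C) (hf : ∀ r, ((f r : F1 C) : F0 C) ∈ A1 C)
    {a b : F1 C ⊗[RatFunc C] K} (hab : a * b = 1)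
    (ha : ((algebraMap (F1 C) (F1 C ⊗[RatFunc C] K)).comp f).IsIntegralElem a)
    (hb : ((algebraMap (F1 C) (F1 C ⊗[RatFunc C] K)).comp f).IsIntegralElem b)
    (P : Plk C K) (hP : down (RatFunc C) P ∈ Inn C 1) : sval (v1 C) P a = 0 := by
  have hba : b * a = 1 := (mul_comm b a).trans hab
  have hua : IsUnit a := ⟨⟨a, b, hab, hba⟩, rfl⟩
  have hub : IsUnit b := ⟨⟨b, a, hba, hab⟩, rfl⟩
  have h1 := (side1 C).sval_mul_of_isUnit P hP hua hub
  rw [hab, (side1 C).sval_one P hP] at h1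
  have h2 : 0 ≤ sval (v1 C) P a :=
    ((side1 C).loc P hP).val_nonneg_of_integral f (fun r => v1_nonneg hP (hf r))
      ((side1 C).not_mem_of_isUnit P hP hua) ha
  have h3 : 0 ≤ sval (v1 C) P b :=
    ((side1 C).loc P hP).val_nonneg_of_integral f (fun r => v1_nonneg hP (hf r))
      ((side1 C).not_mem_of_isUnit P hP hub) hb
  omega

/-- finite level: the divisor of a glued element -/
theorem dvd_of_glue {K : Type*} [Field K] [Algebra C K] [Algebra (RatFunc C) K]
    [IsScalarTower C (RatFunc C) K] [FiniteDimensional (RatFunc C) K] [CFF C K]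
    {n : ℕ} (hn : n ≠ 0) {a s : F1 C ⊗[RatFunc C] K} {t : F2 C ⊗[RatFunc C] K} {z : K}
    (hz : z ≠ 0) (ha : IsUnit a)
    (ha0 : ∀ P : Plk C K, down (RatFunc C) P ∈ Inn C 1 → (n : ℤ) ∣ sval (v1 C) P a)
    (h1 : (1 : F1 C) ⊗ₜ[RatFunc C] z = a * s ^ n)
    (h2 : (1 : F2 C) ⊗ₜ[RatFunc C] z = t ^ n) (P : Plk C K) : (n : ℤ) ∣ ord P z := by
  by_cases hP : down (RatFunc C) P ∈ Inn C 1
  · have hs : s ∉ ((side1 C).pt P hP).asIdeal := by
      intro hs
      apply (side1 C).inc_not_mem P hP hz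
      rw [h1]
      exact Ideal.mul_mem_left _ _ (Ideal.pow_mem_of_mem _ hs n (Nat.pos_of_ne_zero hn))
    have hs' : s ^ n ∉ ((side1 C).pt P hP).asIdeal := fun hc =>
      hs (((side1 C).pt P hP).isPrime.mem_of_pow_mem _ hc)
    rw [← (side1 C).sval_tmul P hP hz, h1,
      (side1 C).sval_mul P hP ((side1 C).not_mem_of_isUnit P hP ha) hs',
      (side1 C).sval_pow P hP hs]
    exact dvd_add (ha0 P hP) (dvd_mul_right _ _)
  · refine (side2 C).dvd_of_pow P hP hz (z := t) (Nat.pos_of_ne_zero hn) ?_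
    rw [h2, sub_self]
    exact zero_mem _

section glue

variable {M : Type*} [Field M] [Algebra C M] [Algebra (RatFunc C) M]
  [IsScalarTower C (RatFunc C) M] [Algebra.IsAlgebraic (RatFunc C) M]

/-- `Uc n M`: elements of finite levels of `M` with all orders divisible by `n` are `n`-th powers
in `M` -/
def Uc (C : Type u) [NontriviallyNormedField C] (M : Type*) [Field M] [Algebra C M]
    [Algebra (RatFunc C) M] [IsScalarTower C (RatFunc C) M] (n : ℕ) : Prop :=
  ∀ (F : IntermediateField (RatFunc C) M) [FiniteDimensional (RatFunc C) F] [CFF C F] (f : F),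
    f ≠ 0 → (∀ P : Plk C F, (n : ℤ) ∣ ord P f) → ∃ y : M, y ^ n = f

/-- integrality descends to finite levels -/
theorem isIntegralElem_descend {A R : Type*} [Field A] [Algebra (RatFunc C) A] [CommRing R]
    (f : R →+* A) (L : IntermediateField (RatFunc C) M) {a : A ⊗[RatFunc C] L}
    (ha : ((algebraMap A (A ⊗[RatFunc C] M)).comp f).IsIntegralElem (tL (RatFunc C) A L.val a)) :
    ((algebraMap A (A ⊗[RatFunc C] L)).comp f).IsIntegralElem a := by
  obtain ⟨p, hp, h0⟩ := ha
  refine ⟨p, hp, ?_⟩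
  apply P025H720.tL_injective L.val
  rw [map_zero, ← h0]
  have h1 : tL (RatFunc C) A L.val (Polynomial.eval₂
      ((algebraMap A (A ⊗[RatFunc C] L)).comp f) a p) =
      Polynomial.eval₂ (((tL (RatFunc C) A L.val).toRingHom).comp
        ((algebraMap A (A ⊗[RatFunc C] L)).comp f)) (tL (RatFunc C) A L.val a) p :=
    Polynomial.hom_eval₂ p _ (tL (RatFunc C) A L.val).toRingHom a
  rw [h1]
  have h2 : (((tL (RatFunc C) A L.val).toRingHom).comp
      ((algebraMap A (A ⊗[RatFunc C] L)).comp f)) = (algebraMap A (A ⊗[RatFunc C] M)).comp f := by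
    ext r
    change tL (RatFunc C) A L.val (f r ⊗ₜ (1 : L)) = f r ⊗ₜ (1 : M)
    rw [tL_tmul, map_one]
  rw [h2]

/-- **the glued element is an `n`-th power** (UC') -/
theorem glue_root {n : ℕ} (hn : n ≠ 0) (hUC : Uc C M n)
    {R : Type*} [CommRing R] (f : R →+* F1 C) (hf : ∀ r, ((f r : F1 C) : F0 C) ∈ A1 C)
    {a b s : F1 C ⊗[RatFunc C] M} {t : F2 C ⊗[RatFunc C] M} {z : M} (hz : z ≠ 0)
    (hab : a * b = 1)
    (ha : ((algebraMap (F1 C) (F1 C ⊗[RatFunc C] M)).comp f).IsIntegralElem a)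
    (hb : ((algebraMap (F1 C) (F1 C ⊗[RatFunc C] M)).comp f).IsIntegralElem b)
    (h1 : (1 : F1 C) ⊗ₜ[RatFunc C] z = a * s ^ n)
    (h2 : (1 : F2 C) ⊗ₜ[RatFunc C] z = t ^ n) : ∃ y : M, y ^ n = z := by
  classical
  obtain ⟨sa, hsa⟩ := exists_lev a
  obtain ⟨sb, hsb⟩ := exists_lev b
  obtain ⟨ss, hss⟩ := exists_lev s
  obtain ⟨st, hst⟩ := exists_lev t
  let S : Finset M := sa ∪ sb ∪ ss ∪ st ∪ {z}
  let L : IntermediateField (RatFunc C) M := IntermediateField.adjoin (RatFunc C) (S : Set M)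
  have hL : (S : Set M) ⊆ L := IntermediateField.subset_adjoin _ _
  have hfd : FiniteDimensional (RatFunc C) L :=
    IntermediateField.finiteDimensional_adjoin (fun x _ => Algebra.IsIntegral.isIntegral x)
  have hcff : CFF C L := cff_of_finite (K := RatFunc C)
  have hS : ∀ T : Finset M, T ⊆ S → (T : Set M) ⊆ L := fun T hT =>
    (Finset.coe_subset.2 hT).trans hL
  obtain ⟨a', rfl⟩ := hsa L (hS _ (by intro x hx; simp [S, hx]))
  obtain ⟨b', rfl⟩ := hsb L (hS _ (by intro x hx; simp [S, hx]))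
  obtain ⟨s', rfl⟩ := hss L (hS _ (by intro x hx; simp [S, hx]))
  obtain ⟨t', rfl⟩ := hst L (hS _ (by intro x hx; simp [S, hx]))
  have hzL : z ∈ L := hL (by simp [S])
  let z' : L := ⟨z, hzL⟩
  have hz' : z' ≠ 0 := by
    intro h
    exact hz (congrArg Subtype.val h)
  have hab' : a' * b' = 1 := by
    apply P025H720.tL_injective L.val
    rw [map_mul, hab, map_one]
  have h1' : (1 : F1 C) ⊗ₜ[RatFunc C] z' = a' * s' ^ n := by
    apply P025H720.tL_injective L.val
    rw [map_mul, map_pow, tL_tmul]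
    exact h1
  have h2' : (1 : F2 C) ⊗ₜ[RatFunc C] z' = t' ^ n := by
    apply P025H720.tL_injective L.val
    rw [map_pow, tL_tmul]
    exact h2
  have hd : ∀ P : Plk C L, (n : ℤ) ∣ ord P z' := fun P =>
    dvd_of_glue hn hz' ⟨⟨a', b', hab', (mul_comm b' a').trans hab'⟩, rfl⟩ (fun P hP => by
      rw [sval_eq_zero f hf hab' (isIntegralElem_descend f L ha)
        (isIntegralElem_descend f L hb) P hP]
      exact dvd_zero _) h1' h2' P
  exact hUC L z' hz' hd

/-- the case `a = 1` -/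
theorem root_of_sides {n : ℕ} (hn : n ≠ 0) (hUC : Uc C M n) {s : F1 C ⊗[RatFunc C] M}
    {t : F2 C ⊗[RatFunc C] M} {z : M} (hz : z ≠ 0)
    (h1 : (1 : F1 C) ⊗ₜ[RatFunc C] z = s ^ n)
    (h2 : (1 : F2 C) ⊗ₜ[RatFunc C] z = t ^ n) : ∃ y : M, y ^ n = z := by
  have hf : ∀ r : A1 C, (((⟨(r : F0 C), IntermediateField.subset_adjoin _ _ r.2⟩ : F1 C)) : F0 C) ∈
      A1 C := fun r => r.2
  let f : A1 C →+* F1 C :=
    { toFun := fun r => ⟨(r : F0 C), IntermediateField.subset_adjoin _ _ r.2⟩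
      map_one' := rfl
      map_mul' := fun _ _ => rfl
      map_zero' := rfl
      map_add' := fun _ _ => rfl }
  refine glue_root hn hUC f hf hz (a := 1) (b := 1) (one_mul 1) ?_ ?_ (by rw [one_mul, h1]) h2
  · exact RingHom.isIntegralElem_one _
  · exact RingHom.isIntegralElem_one _

end glue

end P025H851
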