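import Vale.Agent.P025.R2.H731.Side

/-!
# P025, A-DIV (helper851): values of elements integral over the functions on one side

An element of `F₁ ⊗[F] K` which is integral over a ring of elements of value `≥ 0` has value `≥ 0`.
-/

open TensorProduct Vale.Agent.P019P P025H492 P025H544

namespace P025H731

section loc

variable {F F₁ K : Type*} [Field F] [Field F₁] [Field K] [Algebra F F₁] [Algebra F K]
  [FiniteDimensional F K] {w : F → ℤ} {w₁ : F₁ → ℤ} {u : K → ℤ} {e : ℤ}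

/-- all good approximations of `x` have value `≥ n` -/
def GeV (w₁ : F₁ → ℤ) (u : K → ℤ) (n : ℤ) (x : F₁ ⊗[F] K) : Prop :=
  ∃ M : ℤ, ∀ y : K, App w₁ M x y → Ge u n y

lemma GeV.mono {m n : ℤ} (hmn : m ≤ n) {x : F₁ ⊗[F] K} (h : GeV w₁ u n x) : GeV w₁ u m x := by
  obtain ⟨M, hM⟩ := h
  exact ⟨M, fun y hy => (hM y hy).mono hmn⟩

lemma HasVal.geV {n : ℤ} {x : F₁ ⊗[F] K} (h : HasVal w₁ u x n) : GeV w₁ u n x := by
  obtain ⟨M, hM⟩ := h
  exact ⟨M, fun y hy => Or.inr (hM y hy).2.ge⟩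

lemma Loc.geV_le (h : Loc w w₁ u e) {x : F₁ ⊗[F] K} {m n : ℤ} (hm : HasVal w₁ u x m)
    (hn : GeV w₁ u n x) : n ≤ m := by
  obtain ⟨M, hM⟩ := hm
  obtain ⟨M', hM'⟩ := hn
  obtain ⟨y, hy⟩ := h.exists_app x (max M M')
  obtain ⟨h1, h2⟩ := hM y (hy.mono (le_max_left _ _))
  have h3 := (hM' y (hy.mono (le_max_right _ _))).resolve_left h1
  omega

lemma Loc.geV_zero (h : Loc w w₁ u e) (n : ℤ) : GeV w₁ u n (0 : F₁ ⊗[F] K) :=
  (nul h).zero_mem n

lemma Loc.geV_add (h : Loc w w₁ u e) {x x' : F₁ ⊗[F] K} {n : ℤ} (hx : GeV w₁ u n x)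
    (hx' : GeV w₁ u n x') : GeV w₁ u n (x + x') := by
  obtain ⟨M, hM⟩ := hx
  obtain ⟨M', hM'⟩ := hx'
  refine ⟨max M M', fun z hz => ?_⟩
  obtain ⟨y, hy⟩ := h.exists_app x (max M M')
  have h1 : App w₁ (max M M') x' (z - y) := by
    have h2 := LamB.sub h.dw₁ hz hy
    have h3 : x + x' - inc F F₁ K z - (x - inc F F₁ K y) = x' - inc F F₁ K (z - y) := by
      rw [map_sub]
      ring
    rw [App, Lam, ← h3]
    exact h2
  have h4 := (hM y (hy.mono (le_max_left _ _))).add h.du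
    (hM' _ (h1.mono (le_max_right _ _)))
  rwa [add_sub_cancel] at h4

lemma Loc.geV_neg (h : Loc w w₁ u e) {x : F₁ ⊗[F] K} {n : ℤ} (hx : GeV w₁ u n x) :
    GeV w₁ u n (-x) := by
  obtain ⟨M, hM⟩ := hx
  refine ⟨M, fun z hz => ?_⟩
  have h1 : App w₁ M x (-z) := by
    have h2 := LamB.neg h.dw₁ hz
    have h3 : -(-x - inc F F₁ K z) = x - inc F F₁ K (-z) := by
      rw [map_neg]
      ring
    rw [App, Lam, ← h3]
    exact h2
  have h4 := (hM _ h1).neg h.du
  rwa [neg_neg] at h4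

lemma Loc.geV_mul (h : Loc w w₁ u e) {x x' : F₁ ⊗[F] K} {m n : ℤ} (hx : GeV w₁ u m x)
    (hx' : GeV w₁ u n x') : GeV w₁ u (m + n) (x * x') := by
  obtain ⟨M₁, h1⟩ := hx
  obtain ⟨M₂, h2⟩ := hx'
  obtain ⟨c, hc⟩ := App.mul h.dw₁ x x'
  obtain ⟨d, hd⟩ := h.close
  obtain ⟨M₃, h3⟩ := h.exists_prec d (m + n)
  let M : ℤ := max (max M₁ M₂) (max c (|M₃| + |c|))
  have ha : M₁ ≤ M := (le_max_left _ _).trans (le_max_left _ _)
  have hb : M₂ ≤ M := (le_max_right _ _).trans (le_max_left _ _)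
  have hcM : c ≤ M := (le_max_left _ _).trans (le_max_right _ _)
  have hdM : |M₃| + |c| ≤ M := (le_max_right _ _).trans (le_max_right _ _)
  have hM3 : M₃ ≤ M - c := by
    have h4 := le_abs_self M₃
    have h5 := le_abs_self c
    omega
  refine ⟨M - c, fun z hz => ?_⟩
  obtain ⟨y, hy⟩ := h.exists_app x M
  obtain ⟨y', hy'⟩ := h.exists_app x' M
  have h4 := hc M hcM y y' hy hy'
  have h5 := hd (M - c) _ _ _ h4 hz
  have h6 : e * M₃ ≤ e * (M - c) := mul_le_mul_of_nonneg_left hM3 h.pos.le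
  have h7 := (h5.mono (show m + n ≤ e * (M - c) - d by omega)).add h.du
    ((h1 y (hy.mono ha)).mul h.du (h2 y' (hy'.mono hb)))
  rwa [sub_add_cancel] at h7

lemma Loc.geV_sum (h : Loc w w₁ u e) {ι : Type*} {s : Finset ι} {f : ι → F₁ ⊗[F] K} {n : ℤ}
    (hf : ∀ i ∈ s, GeV w₁ u n (f i)) : GeV w₁ u n (∑ i ∈ s, f i) := by
  classical
  induction s using Finset.induction_on with
  | empty => exact h.geV_zero n
  | insert a s ha ih =>
    rw [Finset.sum_insert ha]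
    exact h.geV_add (hf a (Finset.mem_insert_self a s))
      (ih fun i hi => hf i (Finset.mem_insert_of_mem hi))

lemma Loc.geV_left (h : Loc w w₁ u e) {α : F₁} (hα : 0 ≤ w₁ α) :
    GeV w₁ u 0 (algebraMap F₁ (F₁ ⊗[F] K) α) := by
  by_cases h0 : α = 0
  · rw [h0, map_zero]
    exact h.geV_zero 0
  · exact (h.hasVal_left h0).geV.mono (mul_nonneg h.pos.le hα)

/-- integral elements have value `≥ 0` -/
theorem Loc.val_nonneg_of_integral (h : Loc w w₁ u e) {A : Type*} [CommRing A] (f : A →+* F₁)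
    (hf : ∀ a, 0 ≤ w₁ (f a)) {x : F₁ ⊗[F] K} (hx : x ∉ nul h)
    (hi : ((algebraMap F₁ (F₁ ⊗[F] K)).comp f).IsIntegralElem x) : 0 ≤ val w₁ u x := by
  obtain ⟨p, hp, h0⟩ := hi
  by_contra hneg
  push Not at hneg
  have hval : ∀ i : ℕ, HasVal w₁ u (x ^ i) (i * val w₁ u x) := by
    intro i
    have h1 : x ^ i ∉ nul h := by
      intro hc
      exact hx ((nul_prime h).mem_of_pow_mem _ hc)
    have h2 := h.hasVal_val h1
    rwa [h.val_pow hx] at h2
  set m := p.natDegree with hm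
  rw [hp.as_sum, Polynomial.eval₂_add, Polynomial.eval₂_pow, Polynomial.eval₂_X,
    Polynomial.eval₂_finsetSum] at h0
  have h1 : x ^ m = -∑ i ∈ Finset.range m, Polynomial.eval₂
      ((algebraMap F₁ (F₁ ⊗[F] K)).comp f) x (Polynomial.C (p.coeff i) * Polynomial.X ^ i) :=
    eq_neg_of_add_eq_zero_left h0
  have h2 : GeV w₁ u (((m : ℤ) - 1) * val w₁ u x) (x ^ m) := by
    rw [h1]
    refine h.geV_neg (h.geV_sum fun i hi => ?_)
    rw [Polynomial.eval₂_mul, Polynomial.eval₂_C, Polynomial.eval₂_pow, Polynomial.eval₂_X]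
    have h3 := h.geV_mul (h.geV_left (hf (p.coeff i))) (hval i).geV
    refine h3.mono ?_
    have h4 : (i : ℤ) ≤ (m : ℤ) - 1 := by
      have := Finset.mem_range.1 hi
      omega
    have h5 := mul_le_mul_of_nonpos_right h4 hneg.le
    linarith
  have h3 := h.geV_le (hval m) h2
  nlinarith

end loc

end P025H731
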